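import Vale.Agent.Lib.P038.Sat.Shapes.S6_7t
noncomputable section
namespace Vale.Agent.Lib.P038.Sat.I.M2_7
open Vale.Agent.Lib.P038.Sat
def W : Nat := 103
def M : Nat := 10141204801825835211973625643007
def GT : Nat := 6494542162505246302474709188508781066247458507117776111901887334846286182840952361042980093192019198666735834349273724767387616747781810164364987825772089038673840119680475240034738862121079500634972634855673219158007004528624229081208416845984605043771025923134502581953627680656501543897641708589478384984622377557541093396111702026212256241790693951654618889699706659443594820636372649882300309270176696308519810503238426202948079905947950159342390324197001954264288660266781417134861093781971358134513909551316216902880970607705843407066652347674682879731003484532952981680469047396597069875371789572556338569634294926656100522639361125595326397465770284228636675487533104818315989728325492308105560826369341580137554267037602548675518465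
def h0 : T := (T.l (nat_lit 0))
def H : T := h0
theorem hlast : getB H 0 = 0 := by decide +kernel
end Vale.Agent.Lib.P038.Sat.I.M2_7
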